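import Vale.Agent.P166U.Defs

/-! # P166: rows A and B (helper1) -/

namespace P166U

open MeasureTheory Filter Topology Finset

theorem quad_eqA {N : ℕ} (lam : Fin N → ℝ) (U : Fin N → Fin N → ℝ) (σ : Fin N → Bool) :
    ∑ i, ∑ j, spin σ i * coup lam U i j * spin σ j
      = ∑ k, lam k * (∑ j, U k j * spin σ j) ^ 2 := by
  have h : ∀ k, lam k * (∑ j, U k j * spin σ j) ^ 2
      = ∑ i, ∑ j, spin σ i * (U k i * lam k * U k j) * spin σ j := by
    intro k
    rw [sq, Finset.sum_mul_sum, mul_sum]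
    refine sum_congr rfl fun i _ => ?_
    rw [mul_sum]
    refine sum_congr rfl fun j _ => ?_
    ring
  simp only [h]
  symm
  rw [sum_comm]
  refine sum_congr rfl fun i _ => ?_
  rw [sum_comm]
  refine sum_congr rfl fun j _ => ?_
  unfold coup
  rw [mul_sum, sum_mul]

theorem norm_eqA {N : ℕ} (U : Fin N → Fin N → ℝ) (hU : IsOrth U) (σ : Fin N → Bool) :
    ∑ k, (∑ j, U k j * spin σ j) ^ 2 = N := by
  have h := quad_eqA (fun _ => 1) U σ
  simp only [one_mul] at h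
  rw [← h]
  have h2 : ∀ i j, coup (fun _ => (1 : ℝ)) U i j = if i = j then 1 else 0 := by
    intro i j
    unfold coup
    simp only [mul_one]
    exact hU i j
  simp only [h2, mul_ite, mul_one, mul_zero, ite_mul, zero_mul, sum_ite_eq, mem_univ, if_true]
  have h3 : ∀ i, spin σ i * spin σ i = 1 := by
    intro i
    unfold spin
    split_ifs <;> norm_num
  simp [h3]

theorem ab_pos {N : ℕ} (F : (Fin N → Bool) → ℝ) :
    0 < (2 : ℝ)⁻¹ ^ N * ∑ σ : Fin N → Bool, Real.exp (F σ) := by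
  have : 0 < ∑ σ : Fin N → Bool, Real.exp (F σ) :=
    sum_pos (fun σ _ => Real.exp_pos _) univ_nonempty
  positivity

theorem press_leA {N : ℕ} (hN : 0 < N) (β : ℝ) (hβ : 0 ≤ β) (x y : Fin N → ℝ)
    (U : Fin N → Fin N → ℝ) (hU : IsOrth U) (d : ℝ) (h : ∀ i, x i ≤ y i + d) :
    press β x U ≤ press β y U + β / 2 * d := by
  have hN' : (0 : ℝ) < N := by exact_mod_cast hN
  unfold press
  simp only [quad_eqA]
  have h1 : ∀ σ : Fin N → Bool, β / 2 * ∑ k, x k * (∑ j, U k j * spin σ j) ^ 2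
      ≤ β / 2 * d * N + β / 2 * ∑ k, y k * (∑ j, U k j * spin σ j) ^ 2 := by
    intro σ
    have e1 : ∑ k, x k * (∑ j, U k j * spin σ j) ^ 2
        ≤ ∑ k, (y k + d) * (∑ j, U k j * spin σ j) ^ 2 :=
      sum_le_sum fun k _ => mul_le_mul_of_nonneg_right (h k) (sq_nonneg _)
    have e2 : ∑ k, (y k + d) * (∑ j, U k j * spin σ j) ^ 2
        = ∑ k, y k * (∑ j, U k j * spin σ j) ^ 2 + d * N := by
      rw [← norm_eqA U hU σ, mul_sum, ← sum_add_distrib]
      exact sum_congr rfl fun k _ => by ring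
    rw [e2] at e1
    have := mul_le_mul_of_nonneg_left e1 (show 0 ≤ β / 2 by positivity)
    linarith
  have h2 : (2 : ℝ)⁻¹ ^ N * ∑ σ : Fin N → Bool,
      Real.exp (β / 2 * ∑ k, x k * (∑ j, U k j * spin σ j) ^ 2)
      ≤ Real.exp (β / 2 * d * N) * ((2 : ℝ)⁻¹ ^ N * ∑ σ : Fin N → Bool,
      Real.exp (β / 2 * ∑ k, y k * (∑ j, U k j * spin σ j) ^ 2)) := by
    rw [mul_left_comm]
    refine mul_le_mul_of_nonneg_left ?_ (by positivity)
    rw [mul_sum]
    refine sum_le_sum fun σ _ => ?_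
    rw [← Real.exp_add]
    exact Real.exp_le_exp.2 (h1 σ)
  have h3 := Real.log_le_log (ab_pos _) h2
  rw [Real.log_mul (Real.exp_ne_zero _) (ab_pos _).ne', Real.log_exp] at h3
  have h4 := mul_le_mul_of_nonneg_left h3 (show (0 : ℝ) ≤ 1 / N by positivity)
  refine h4.trans (le_of_eq ?_)
  field_simp
  ring

theorem ab_lse {κ ι : Type} [Fintype κ] [Nonempty κ] [Fintype ι] [Nonempty ι]
    (a : ι → κ → ℝ) :
    Real.log (∑ s, Real.exp ((1 / (Fintype.card ι : ℝ)) * ∑ k, a k s))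
      ≤ (1 / (Fintype.card ι : ℝ)) * ∑ k, Real.log (∑ s, Real.exp (a k s)) := by
  have hc : (0 : ℝ) < Fintype.card ι := by exact_mod_cast Fintype.card_pos
  set Z : ι → ℝ := fun k => ∑ s, Real.exp (a k s) with hZ
  have hZ0 : ∀ k, 0 < Z k := fun k => sum_pos (fun s _ => Real.exp_pos _) univ_nonempty
  have hx : ∀ s, Real.exp ((1 / (Fintype.card ι : ℝ)) * ∑ k, (a k s - Real.log (Z k)))
      ≤ (1 / (Fintype.card ι : ℝ)) * ∑ k, Real.exp (a k s - Real.log (Z k)) := by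
    intro s
    have := convexOn_exp.map_sum_le (t := (univ : Finset ι))
      (w := fun _ => 1 / (Fintype.card ι : ℝ)) (p := fun k => a k s - Real.log (Z k))
      (fun _ _ => by positivity) (by simp [hc.ne']) (fun _ _ => Set.mem_univ _)
    simpa only [smul_eq_mul, ← mul_sum] using this
  have h1 : ∑ s, Real.exp ((1 / (Fintype.card ι : ℝ)) * ∑ k, (a k s - Real.log (Z k))) ≤ 1 := by
    refine (sum_le_sum fun s _ => hx s).trans ?_
    rw [← mul_sum, sum_comm]
    have : ∀ k, ∑ s, Real.exp (a k s - Real.log (Z k)) = 1 := by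
      intro k
      simp only [Real.exp_sub, Real.exp_log (hZ0 k)]
      rw [← sum_div]
      exact div_self (hZ0 k).ne'
    simp [this, hc.ne']
  have h2 : ∑ s, Real.exp ((1 / (Fintype.card ι : ℝ)) * ∑ k, a k s)
      = Real.exp ((1 / (Fintype.card ι : ℝ)) * ∑ k, Real.log (Z k)) *
        ∑ s, Real.exp ((1 / (Fintype.card ι : ℝ)) * ∑ k, (a k s - Real.log (Z k))) := by
    rw [mul_sum]
    refine sum_congr rfl fun s _ => ?_
    rw [← Real.exp_add, sum_sub_distrib]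
    congr 1
    ring
  have h3 : ∑ s, Real.exp ((1 / (Fintype.card ι : ℝ)) * ∑ k, a k s)
      ≤ Real.exp ((1 / (Fintype.card ι : ℝ)) * ∑ k, Real.log (Z k)) := by
    rw [h2]
    exact mul_le_of_le_one_right (Real.exp_pos _).le h1
  have h4 := Real.log_le_log (sum_pos (fun s _ => Real.exp_pos _) univ_nonempty) h3
  rwa [Real.log_exp] at h4

theorem press_avgB {N : ℕ} {ι : Type} [Fintype ι] [Nonempty ι] (β : ℝ) (x : ι → Fin N → ℝ)
    (U : Fin N → Fin N → ℝ) :
    press β (fun i => (1 / (Fintype.card ι : ℝ)) * ∑ k, x k i) U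
      ≤ (1 / (Fintype.card ι : ℝ)) * ∑ k, press β (x k) U := by
  have hc : (0 : ℝ) < Fintype.card ι := by exact_mod_cast Fintype.card_pos
  unfold press
  simp only [quad_eqA]
  have hlog : ∀ F : (Fin N → Bool) → ℝ, Real.log ((2 : ℝ)⁻¹ ^ N * ∑ σ : Fin N → Bool,
      Real.exp (F σ)) = Real.log ((2 : ℝ)⁻¹ ^ N) + Real.log (∑ σ : Fin N → Bool,
      Real.exp (F σ)) := by
    intro F
    exact Real.log_mul (by positivity)
      (sum_pos (fun s _ => Real.exp_pos _) univ_nonempty).ne'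
  have h1 := ab_lse (fun (k : ι) (σ : Fin N → Bool) =>
    β / 2 * ∑ l, x k l * (∑ j, U l j * spin σ j) ^ 2)
  have h2 : ∀ σ : Fin N → Bool, β / 2 * ∑ l, (1 / (Fintype.card ι : ℝ) * ∑ k, x k l) *
      (∑ j, U l j * spin σ j) ^ 2 = 1 / (Fintype.card ι : ℝ) * ∑ k,
      (β / 2 * ∑ l, x k l * (∑ j, U l j * spin σ j) ^ 2) := by
    intro σ
    rw [← mul_sum, sum_comm, mul_left_comm]
    congr 1
    rw [mul_sum]
    refine sum_congr rfl fun l _ => ?_
    rw [← sum_mul]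
    ring
  simp only [hlog, h2]
  have h3 := mul_le_mul_of_nonneg_left h1 (show (0 : ℝ) ≤ 1 / N by positivity)
  have h4 : (1 / (Fintype.card ι : ℝ)) * ∑ k : ι, (1 / (N : ℝ)) * (Real.log ((2 : ℝ)⁻¹ ^ N)
      + Real.log (∑ σ : Fin N → Bool,
        Real.exp (β / 2 * ∑ l, x k l * (∑ j, U l j * spin σ j) ^ 2)))
      = (1 / (N : ℝ)) * Real.log ((2 : ℝ)⁻¹ ^ N) + (1 / (N : ℝ)) *
        ((1 / (Fintype.card ι : ℝ)) * ∑ k : ι, Real.log (∑ σ : Fin N → Bool,
        Real.exp (β / 2 * ∑ l, x k l * (∑ j, U l j * spin σ j) ^ 2))) := by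
    rw [← mul_sum, sum_add_distrib, sum_const, card_univ, nsmul_eq_mul]
    field_simp
  rw [h4, mul_add]
  linarith

end P166U
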