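import Vale.Agent.P166U.Defs

/-! # P166, piece B: convexity of the pressure in the eigenvalues -/

namespace P166U

open Finset

/-- convexity of log-sum-exp -/
theorem b8_lse {ι σ : Type} [Fintype ι] [Nonempty ι] [Fintype σ] [Nonempty σ] (q : ι → σ → ℝ) :
    Real.log (∑ s, Real.exp ((1 / (Fintype.card ι : ℝ)) * ∑ k, q k s))
      ≤ (1 / (Fintype.card ι : ℝ)) * ∑ k, Real.log (∑ s, Real.exp (q k s)) := by
  set c : ℝ := 1 / (Fintype.card ι : ℝ) with hc
  have hcard : (0 : ℝ) < Fintype.card ι := by exact_mod_cast Fintype.card_pos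
  set a : σ → ℝ := fun s => c * ∑ k, q k s with ha
  set Z : ℝ := ∑ s, Real.exp (a s) with hZ
  have hZ0 : 0 < Z := sum_pos (fun s _ => Real.exp_pos _) univ_nonempty
  have hk : ∀ k, Real.log Z + ∑ s, Real.exp (a s) / Z * (q k s - a s)
      ≤ Real.log (∑ s, Real.exp (q k s)) := by
    intro k
    have h1 := convexOn_exp.map_sum_le (t := (univ : Finset σ)) (w := fun s => Real.exp (a s) / Z)
      (p := fun s => q k s - a s) (fun s _ => (div_pos (Real.exp_pos _) hZ0).le)
      (by rw [← sum_div]; exact div_self hZ0.ne') (fun s _ => Set.mem_univ _)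
    simp only [smul_eq_mul] at h1
    have h2 : ∑ s, Real.exp (a s) / Z * Real.exp (q k s - a s) = (∑ s, Real.exp (q k s)) / Z := by
      rw [sum_div]
      refine sum_congr rfl fun s _ => ?_
      rw [Real.exp_sub]
      field_simp
    rw [h2] at h1
    have h3 : 0 < ∑ s, Real.exp (q k s) := sum_pos (fun s _ => Real.exp_pos _) univ_nonempty
    have h4 : ∑ s, Real.exp (a s) / Z * (q k s - a s) ≤ Real.log ((∑ s, Real.exp (q k s)) / Z) := by
      rw [← Real.log_exp (∑ s, Real.exp (a s) / Z * (q k s - a s))]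
      exact Real.log_le_log (Real.exp_pos _) h1
    rw [Real.log_div h3.ne' hZ0.ne'] at h4
    linarith
  have hsum := sum_le_sum fun k (_ : k ∈ (univ : Finset ι)) => hk k
  rw [sum_add_distrib, sum_const, card_univ, nsmul_eq_mul] at hsum
  have hzero : ∑ k, ∑ s, Real.exp (a s) / Z * (q k s - a s) = 0 := by
    rw [sum_comm]
    refine sum_eq_zero fun s _ => ?_
    rw [← mul_sum, sum_sub_distrib, sum_const, card_univ, nsmul_eq_mul]
    have : (Fintype.card ι : ℝ) * a s = ∑ k, q k s := by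
      simp only [ha, hc]
      field_simp
    rw [this, sub_self, mul_zero]
  rw [hzero, add_zero] at hsum
  have h5 : Real.log Z = c * ((Fintype.card ι : ℝ) * Real.log Z) := by
    simp only [hc]
    field_simp
  rw [h5]
  exact mul_le_mul_of_nonneg_left hsum (by positivity)

theorem press_avgA {N : ℕ} {ι : Type} [Fintype ι] [Nonempty ι] (β : ℝ) (x : ι → Fin N → ℝ)
    (U : Fin N → Fin N → ℝ) :
    press β (fun i => (1 / (Fintype.card ι : ℝ)) * ∑ k, x k i) U
      ≤ (1 / (Fintype.card ι : ℝ)) * ∑ k, press β (x k) U := by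
  have hlin : ∀ σ : Fin N → Bool, β / 2 * ∑ i, ∑ j, spin σ i *
      coup (fun i => (1 / (Fintype.card ι : ℝ)) * ∑ k, x k i) U i j * spin σ j
      = (1 / (Fintype.card ι : ℝ)) * ∑ k, β / 2 * ∑ i, ∑ j, spin σ i * coup (x k) U i j *
        spin σ j := by
    intro σ
    have h1 : ∀ i j, coup (fun i => (1 / (Fintype.card ι : ℝ)) * ∑ k, x k i) U i j
        = (1 / (Fintype.card ι : ℝ)) * ∑ k, coup (x k) U i j := by
      intro i j
      unfold coup
      rw [sum_comm, mul_sum]
      refine sum_congr rfl fun l _ => ?_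
      rw [← sum_mul, ← mul_sum]
      ring
    have h2 : ∑ i, ∑ j, spin σ i *
        coup (fun i => (1 / (Fintype.card ι : ℝ)) * ∑ k, x k i) U i j * spin σ j
        = (1 / (Fintype.card ι : ℝ)) * ∑ k, ∑ i, ∑ j, spin σ i * coup (x k) U i j * spin σ j := by
      rw [sum_comm (s := (univ : Finset ι)), mul_sum]
      refine sum_congr rfl fun i _ => ?_
      rw [sum_comm (s := (univ : Finset ι)), mul_sum]
      refine sum_congr rfl fun j _ => ?_
      rw [h1, ← sum_mul, ← mul_sum]
      ring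
    rw [h2, ← mul_sum]
    ring
  have hlog : ∀ f : (Fin N → Bool) → ℝ, Real.log ((2 : ℝ)⁻¹ ^ N * ∑ σ, Real.exp (f σ))
      = Real.log ((2 : ℝ)⁻¹ ^ N) + Real.log (∑ σ, Real.exp (f σ)) := by
    intro f
    have h3 : 0 < ∑ σ, Real.exp (f σ) := sum_pos (fun s _ => Real.exp_pos _) univ_nonempty
    exact Real.log_mul (by positivity) h3.ne'
  have hcard : (0 : ℝ) < Fintype.card ι := by exact_mod_cast Fintype.card_pos
  unfold press
  simp only [hlin]
  rw [hlog]
  simp only [hlog]
  have key := b8_lse (fun (k : ι) (σ : Fin N → Bool) =>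
    β / 2 * ∑ i, ∑ j, spin σ i * coup (x k) U i j * spin σ j)
  have e1 : (1 / (Fintype.card ι : ℝ)) * ∑ k, 1 / (N : ℝ) * (Real.log ((2 : ℝ)⁻¹ ^ N) +
      Real.log (∑ σ : Fin N → Bool, Real.exp (β / 2 * ∑ i, ∑ j, spin σ i * coup (x k) U i j *
        spin σ j)))
      = 1 / (N : ℝ) * (Real.log ((2 : ℝ)⁻¹ ^ N) + (1 / (Fintype.card ι : ℝ)) * ∑ k,
      Real.log (∑ σ : Fin N → Bool, Real.exp (β / 2 * ∑ i, ∑ j, spin σ i * coup (x k) U i j *
        spin σ j))) := by
    rw [← mul_sum, sum_add_distrib, sum_const, card_univ, nsmul_eq_mul]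
    field_simp
  rw [e1]
  refine mul_le_mul_of_nonneg_left ?_ (by positivity)
  linarith

end P166U
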