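import Vale.Agent.P166U.B8

/-! # P166, piece C3: averaging over a group of coordinates lowers the mean pressure -/

namespace P166U

open MeasureTheory Finset

theorem mean_groupA {N : ℕ} (β : ℝ) (x : Fin N → ℝ)
    (ν : Measure (Fin N → Fin N → ℝ))
    (hint : ∀ x : Fin N → ℝ, Integrable (press β x) ν)
    (hperm : ∀ (x : Fin N → ℝ) (π : Equiv.Perm (Fin N)),
      meanPress β (fun i => x (π i)) ν = meanPress β x ν)
    (G : Finset (Fin N)) (hG : G.Nonempty) :
    meanPress β (fun i => if i ∈ G then (∑ j ∈ G, x j) / (G.card : ℝ) else x i) ν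
      ≤ meanPress β x ν := by
  classical
  have hcard : Fintype.card G = G.card := Fintype.card_coe G
  haveI : NeZero G.card := ⟨hG.card_pos.ne'⟩
  have hg0 : (0 : ℝ) < G.card := by exact_mod_cast hG.card_pos
  let e : G ≃ Fin G.card := (Fintype.equivFinOfCardEq hcard)
  let p : Fin G.card → Equiv.Perm G := fun k => e.trans ((Equiv.addRight k).trans e.symm)
  let π : Fin G.card → Equiv.Perm (Fin N) := fun k => Equiv.Perm.ofSubtype (p k)
  have hπmem : ∀ (k : Fin G.card) (i : Fin N) (hi : i ∈ G),
      π k i = ((e.symm (e ⟨i, hi⟩ + k) : G) : Fin N) := by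
    intro k i hi
    simp only [π]
    rw [Equiv.Perm.ofSubtype_apply_of_mem (p k) hi]
    rfl
  have hπnot : ∀ (k : Fin G.card) (i : Fin N), i ∉ G → π k i = i := by
    intro k i hi
    exact Equiv.Perm.ofSubtype_apply_of_not_mem (p k) hi
  have havg : (fun i => if i ∈ G then (∑ j ∈ G, x j) / (G.card : ℝ) else x i)
      = fun i => (1 / (Fintype.card (Fin G.card) : ℝ)) * ∑ k, x (π k i) := by
    funext i
    rw [Fintype.card_fin]
    split_ifs with hi
    · have h1 : ∑ k, x (π k i) = ∑ j ∈ G, x j := by
        have h2 : ∀ k, x (π k i) = x ((e.symm (Equiv.addLeft (e ⟨i, hi⟩) k) : G) : Fin N) := by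
          intro k
          rw [hπmem k i hi]
          rfl
        simp only [h2]
        rw [Equiv.sum_comp (Equiv.addLeft (e ⟨i, hi⟩)) (fun m => x ((e.symm m : G) : Fin N)),
          Equiv.sum_comp e.symm (fun j : G => x (j : Fin N))]
        exact Finset.sum_coe_sort G (fun j => x j)
      rw [h1]
      ring
    · have h1 : ∑ k, x (π k i) = (G.card : ℝ) * x i := by
        simp only [hπnot _ i hi, sum_const, card_univ, Fintype.card_fin, nsmul_eq_mul]
      rw [h1]
      field_simp
  rw [havg]
  have hfin : Nonempty (Fin G.card) := ⟨0⟩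
  have hI : ∀ k, Integrable (fun U => press β (fun i => x (π k i)) U) ν :=
    fun k => hint _
  calc meanPress β (fun i => (1 / (Fintype.card (Fin G.card) : ℝ)) * ∑ k, x (π k i)) ν
      ≤ ∫ U, (1 / (Fintype.card (Fin G.card) : ℝ)) * ∑ k, press β (fun i => x (π k i)) U ∂ν := by
        refine integral_mono (hint _) ?_ fun U => press_avgA β (fun k i => x (π k i)) U
        exact (integrable_finsetSum univ fun k _ => hI k).const_mul _
    _ = (1 / (Fintype.card (Fin G.card) : ℝ)) * ∑ k, meanPress β (fun i => x (π k i)) ν := by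
        rw [integral_const_mul, integral_finsetSum univ fun k _ => hI k]
        rfl
    _ = meanPress β x ν := by
        simp only [hperm, sum_const, card_univ, Fintype.card_fin, nsmul_eq_mul]
        field_simp

end P166U
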