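import Vale.Agent.P166U.CF1
import Vale.Agent.P166U.C3b8

/-! # P166: rows C1, C4, C3 in final form (helper1) -/

namespace P166U

open MeasureTheory Filter Topology Finset

theorem press_zero {N : ℕ} (β : ℝ) (U : Fin N → Fin N → ℝ) : press β (fun _ => 0) U = 0 := by
  unfold press
  simp only [quad_eqA, zero_mul, sum_const_zero, mul_zero, Real.exp_zero, sum_const, card_univ,
    Fintype.card_fun, Fintype.card_bool, Fintype.card_fin, nsmul_eq_mul, mul_one]
  have : (2 : ℝ)⁻¹ ^ N * ((2 ^ N : ℕ) : ℝ) = 1 := by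
    push_cast
    rw [← mul_pow]
    norm_num
  rw [this]
  simp

theorem press_intB {N : ℕ} (hN : 0 < N) (β : ℝ) (hβ : 0 ≤ β) (x : Fin N → ℝ)
    (ν : Measure (Fin N → Fin N → ℝ)) (hν : IsHaar ν) : Integrable (press β x) ν := by
  haveI := hν.prob
  set M : ℝ := ∑ i, |x i| with hM
  have hxM : ∀ i, |x i| ≤ M := fun i =>
    single_le_sum (f := fun i => |x i|) (fun _ _ => abs_nonneg _) (mem_univ i)
  refine Integrable.of_bound (press_cont β x).measurable.aestronglyMeasurable (β / 2 * M) ?_
  filter_upwards [hν.orth] with U hU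
  have h1 := press_leA hN β hβ x (fun _ => 0) U hU M fun i => by
    have := (abs_le.1 (hxM i)).2
    linarith
  have h2 := press_leA hN β hβ (fun _ => 0) x U hU M fun i => by
    have := (abs_le.1 (hxM i)).1
    linarith
  rw [press_zero] at h1 h2
  rw [Real.norm_eq_abs, abs_le]
  constructor <;> linarith

theorem mean_leB {N : ℕ} (hN : 0 < N) (β : ℝ) (hβ : 0 ≤ β) (x y : Fin N → ℝ)
    (ν : Measure (Fin N → Fin N → ℝ)) (hν : IsHaar ν) (d : ℝ) (h : ∀ i, x i ≤ y i + d) :
    meanPress β x ν ≤ meanPress β y ν + β / 2 * d := by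
  haveI := hν.prob
  unfold meanPress
  have h1 : ∫ U, press β x U ∂ν ≤ ∫ U, (press β y U + β / 2 * d) ∂ν := by
    refine integral_mono_ae (press_intB hN β hβ x ν hν)
      ((press_intB hN β hβ y ν hν).add (integrable_const _)) ?_
    filter_upwards [hν.orth] with U hU
    exact press_leA hN β hβ x y U hU d h
  rw [integral_add (press_intB hN β hβ y ν hν) (integrable_const _), integral_const] at h1
  simpa using h1

theorem mean_groupB {N : ℕ} (hN : 0 < N) (β : ℝ) (hβ : 0 ≤ β) (x : Fin N → ℝ)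
    (ν : Measure (Fin N → Fin N → ℝ)) (hν : IsHaar ν) (G : Finset (Fin N)) (hG : G.Nonempty) :
    meanPress β (fun i => if i ∈ G then (∑ j ∈ G, x j) / (G.card : ℝ) else x i) ν
      ≤ meanPress β x ν :=
  mean_groupA β x ν (fun x => press_intB hN β hβ x ν hν)
    (fun x π => mean_permA β x ν hν π) G hG

end P166U
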