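import Vale.Agent.P166U.Defs

/-! # P166: invariance of the mean pressure under permutations of the eigenvalues -/

namespace P166U

open MeasureTheory Filter Topology Finset

/-- permutation matrix -/
def permMat20 {N : ℕ} (π : Equiv.Perm (Fin N)) (i k : Fin N) : ℝ := if π k = i then 1 else 0

theorem permMat20_orth {N : ℕ} (π : Equiv.Perm (Fin N)) : IsOrth (permMat20 π) := by
  intro i j
  unfold permMat20
  rw [Finset.sum_eq_single (π i)]
  · by_cases h : i = j
    · simp [h]
    · have : ¬ (π j = π i) := fun h' => h (π.injective h').symm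
      simp [h, this]
  · intro k _ hk
    have : ¬ (π i = k) := fun h' => hk h'.symm
    simp [this]
  · intro h
    exact absurd (Finset.mem_univ _) h

theorem permMat20_mul {N : ℕ} (π : Equiv.Perm (Fin N)) (U : Fin N → Fin N → ℝ) (i j : Fin N) :
    mulMat (permMat20 π) U i j = U (π.symm i) j := by
  unfold mulMat permMat20
  rw [Finset.sum_eq_single (π.symm i)]
  · simp
  · intro k _ hk
    have : ¬ (π k = i) := fun h' => hk (by rw [← h']; simp)
    simp [this]
  · intro h
    exact absurd (Finset.mem_univ _) h

theorem coup_perm20 {N : ℕ} (x : Fin N → ℝ) (π : Equiv.Perm (Fin N)) (U : Fin N → Fin N → ℝ)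
    (i j : Fin N) :
    coup x (mulMat (permMat20 π) U) i j = coup (fun i => x (π i)) U i j := by
  unfold coup
  simp only [permMat20_mul]
  rw [← Equiv.sum_comp π]
  simp

theorem press_perm20 {N : ℕ} (β : ℝ) (x : Fin N → ℝ) (π : Equiv.Perm (Fin N))
    (U : Fin N → Fin N → ℝ) :
    press β x (mulMat (permMat20 π) U) = press β (fun i => x (π i)) U := by
  unfold press
  simp only [coup_perm20]

theorem continuous_mulMat20 {N : ℕ} (O : Fin N → Fin N → ℝ) :
    Continuous (mulMat O : (Fin N → Fin N → ℝ) → (Fin N → Fin N → ℝ)) := by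
  unfold mulMat
  fun_prop

theorem continuous_press20 {N : ℕ} (β : ℝ) (x : Fin N → ℝ) :
    Continuous (press β x : (Fin N → Fin N → ℝ) → ℝ) := by
  unfold press coup
  apply Continuous.mul continuous_const
  apply Continuous.log
  · fun_prop
  · intro U
    apply ne_of_gt
    apply mul_pos (by positivity)
    apply Finset.sum_pos
    · intro σ _
      exact Real.exp_pos _
    · exact Finset.univ_nonempty

theorem mean_permA {N : ℕ} (β : ℝ) (x : Fin N → ℝ) (ν : Measure (Fin N → Fin N → ℝ))
    (hν : IsHaar ν) (π : Equiv.Perm (Fin N)) :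
    meanPress β (fun i => x (π i)) ν = meanPress β x ν := by
  unfold meanPress
  have h := hν.inv (permMat20 π) (permMat20_orth π)
  conv_rhs => rw [← h]
  rw [MeasureTheory.integral_map]
  · apply integral_congr_ae
    exact Filter.Eventually.of_forall (fun U => (press_perm20 β x π U).symm)
  · exact (continuous_mulMat20 _).measurable.aemeasurable
  · exact (continuous_press20 β x).aestronglyMeasurable

end P166U
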