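import Vale.Agent.P166U.AB1

/-! # P166: rows C2, F0, F1 (helper1) -/

namespace P166U

open MeasureTheory Filter Topology Finset

theorem press_cont {N : ℕ} (β : ℝ) (x : Fin N → ℝ) :
    Continuous (press β x : (Fin N → Fin N → ℝ) → ℝ) := by
  unfold press
  refine Continuous.mul continuous_const ?_
  refine Continuous.log ?_ fun U => (ab_pos _).ne'
  refine Continuous.mul continuous_const ?_
  refine continuous_finsetSum _ fun σ _ => Real.continuous_exp.comp ?_
  refine Continuous.mul continuous_const ?_
  refine continuous_finsetSum _ fun i _ => continuous_finsetSum _ fun j _ => ?_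
  refine Continuous.mul (Continuous.mul continuous_const ?_) continuous_const
  unfold coup
  refine continuous_finsetSum _ fun k _ => ?_
  fun_prop

theorem mulMat_cont {N : ℕ} (O : Fin N → Fin N → ℝ) : Continuous (mulMat O) := by
  unfold mulMat
  refine continuous_pi fun i => continuous_pi fun j => ?_
  refine continuous_finsetSum _ fun k _ => ?_
  fun_prop

theorem mean_permA {N : ℕ} (β : ℝ) (x : Fin N → ℝ) (ν : Measure (Fin N → Fin N → ℝ))
    (hν : IsHaar ν) (π : Equiv.Perm (Fin N)) :
    meanPress β (fun i => x (π i)) ν = meanPress β x ν := by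
  set O : Fin N → Fin N → ℝ := fun i k => if k = π.symm i then 1 else 0 with hO
  have hmul : ∀ U : Fin N → Fin N → ℝ, mulMat O U = fun i j => U (π.symm i) j := by
    intro U
    funext i j
    simp [mulMat, hO]
  have horth : IsOrth O := by
    intro i j
    simp only [hO]
    rw [← Equiv.sum_comp π]
    simp only [Equiv.symm_apply_apply]
    by_cases hij : i = j
    · subst hij
      simp
    · rw [if_neg hij]
      refine sum_eq_zero fun k _ => ?_
      by_cases hik : i = k
      · have : ¬ (j = k) := fun h => hij (hik.trans h.symm)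
        simp [this]
      · simp [hik]
  have hpress : ∀ U : Fin N → Fin N → ℝ, press β (fun i => x (π i)) U
      = press β x (mulMat O U) := by
    intro U
    rw [hmul]
    have : coup (fun i => x (π i)) U = coup x (fun i j => U (π.symm i) j) := by
      funext i j
      unfold coup
      rw [← Equiv.sum_comp π (fun k => U (π.symm k) i * x k * U (π.symm k) j)]
      simp
    unfold press
    rw [this]
  unfold meanPress
  have h1 : ∫ U, press β x U ∂(ν.map (mulMat O)) = ∫ U, press β x (mulMat O U) ∂ν :=
    integral_map (mulMat_cont O).measurable.aemeasurable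
      (press_cont β x).measurable.aestronglyMeasurable
  rw [hν.inv O horth] at h1
  rw [h1]
  exact integral_congr_ae (Eventually.of_forall fun U => hpress U)

theorem spectra_permA (μ : Measure ℝ) (x : (N : ℕ) → Fin N → ℝ) (hx : Spectra μ x)
    (π : (N : ℕ) → Equiv.Perm (Fin N)) : Spectra μ (fun N i => x N (π N i)) := by
  refine ⟨fun f hf hb => ?_, ?_, ?_⟩
  · refine (hx.weak f hf hb).congr fun N => ?_
    rw [Equiv.sum_comp (π N) (fun i => f (x N i))]
  · refine hx.top.congr fun N => ?_
    exact (Equiv.iSup_comp (g := fun i => x N i) (π N)).symm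
  · refine hx.bot.congr fun N => ?_
    exact (Equiv.iInf_comp (g := fun i => x N i) (π N)).symm

theorem spectra_bddA (μ : Measure ℝ) (x : (N : ℕ) → Fin N → ℝ) (hx : Spectra μ x) :
    ∃ M : ℝ, ∀ᶠ N in atTop, ∀ i, |x N i| ≤ M := by
  refine ⟨|sSup μ.support| + |sInf μ.support| + 1, ?_⟩
  have h1 : ∀ᶠ N in atTop, (⨆ i, x N i) < sSup μ.support + 1 :=
    (tendsto_order.1 hx.top).2 _ (by linarith)
  have h2 : ∀ᶠ N in atTop, sInf μ.support - 1 < (⨅ i, x N i) :=
    (tendsto_order.1 hx.bot).1 _ (by linarith)
  filter_upwards [h1, h2] with N h3 h4 i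
  have h5 : x N i ≤ ⨆ i, x N i := le_ciSup (Set.finite_range _).bddAbove i
  have h6 : (⨅ i, x N i) ≤ x N i := ciInf_le (Set.finite_range _).bddBelow i
  have h7 := le_abs_self (sSup μ.support)
  have h8 := neg_abs_le (sInf μ.support)
  have h9 := abs_nonneg (sSup μ.support)
  have h10 := abs_nonneg (sInf μ.support)
  rw [abs_le]
  constructor <;> linarith

end P166U
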