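import Vale.Agent.P166U.Defs

/-! # P166: rows C1 (press_int) and C4 (mean_le), by helper19 -/

namespace P166U

open MeasureTheory Filter Topology Finset

theorem press_cont19 {N : ℕ} (β : ℝ) (x : Fin N → ℝ) : Continuous (press β x) := by
  unfold press coup
  refine continuous_const.mul (Continuous.log ?_ ?_)
  · refine continuous_const.mul (continuous_finsetSum _ fun σ _ => ?_)
    refine Real.continuous_exp.comp (continuous_const.mul ?_)
    refine continuous_finsetSum _ fun i _ => continuous_finsetSum _ fun j _ => ?_
    refine (continuous_const.mul (continuous_finsetSum _ fun k _ => ?_)).mul continuous_const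
    exact ((continuous_apply_apply k i).mul continuous_const).mul (continuous_apply_apply k j)
  · intro U
    have h1 : 0 < ∑ σ : Fin N → Bool, Real.exp (β / 2 * ∑ i, ∑ j, spin σ i *
        (∑ k, U k i * x k * U k j) * spin σ j) :=
      Finset.sum_pos (fun σ _ => Real.exp_pos _) ⟨fun _ => true, Finset.mem_univ _⟩
    positivity

/-- C1 -/
theorem press_intA {N : ℕ} (β : ℝ) (x : Fin N → ℝ)
    (ν : Measure (Fin N → Fin N → ℝ)) (hν : IsHaar ν) : Integrable (press β x) ν := by
  have := hν.prob
  have hc : IsCompact (Set.pi Set.univ (fun _ : Fin N =>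
      Set.pi Set.univ (fun _ : Fin N => Set.Icc (-1 : ℝ) 1))) :=
    isCompact_univ_pi fun _ => isCompact_univ_pi fun _ => isCompact_Icc
  obtain ⟨C, hC⟩ := hc.exists_bound_of_continuousOn (press_cont19 β x).continuousOn
  refine Integrable.of_bound (press_cont19 β x).aestronglyMeasurable C ?_
  filter_upwards [hν.orth] with U hU
  refine hC U ?_
  simp only [Set.mem_pi, Set.mem_univ, forall_true_left]
  intro k i
  have h1 := hU i i
  rw [if_pos rfl] at h1
  have h2 : U k i * U k i ≤ 1 := by
    rw [← h1]
    exact Finset.single_le_sum (f := fun k => U k i * U k i) (fun k _ => mul_self_nonneg _)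
      (Finset.mem_univ k)
  exact abs_le.1 (abs_le_one_iff_mul_self_le_one.2 h2)

/-- C4 (the hypothesis `A3` is `press_le`) -/
theorem mean_leA {N : ℕ} (β : ℝ) (x y : Fin N → ℝ)
    (ν : Measure (Fin N → Fin N → ℝ)) (hν : IsHaar ν) (d : ℝ)
    (A3 : ∀ U : Fin N → Fin N → ℝ, IsOrth U → press β x U ≤ press β y U + β / 2 * d) :
    meanPress β x ν ≤ meanPress β y ν + β / 2 * d := by
  have := hν.prob
  unfold meanPress
  have h1 : ∫ U, press β x U ∂ν ≤ ∫ U, (press β y U + β / 2 * d) ∂ν := by
    refine integral_mono_ae (press_intA β x ν hν)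
      ((press_intA β y ν hν).add (integrable_const _)) ?_
    filter_upwards [hν.orth] with U hU
    exact A3 U hU
  rw [integral_add (press_intA β y ν hν) (integrable_const _)] at h1
  simpa using h1

end P166U
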