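import Vale.Agent.P166U.Defs

/-! # P166: row D (bad_count), by helper19 -/

namespace P166U

open MeasureTheory Filter Topology Finset

/-- the ramp: `1` up to `s`, `0` from `s + h` on -/
noncomputable def ramp19 (s h t : ℝ) : ℝ := max 0 (min 1 ((s + h - t) / h))

theorem ramp19_cont (s h : ℝ) : Continuous (ramp19 s h) := by
  unfold ramp19; fun_prop

theorem ramp19_nonneg (s h t : ℝ) : 0 ≤ ramp19 s h t := le_max_left _ _

theorem ramp19_le (s h t : ℝ) : ramp19 s h t ≤ 1 := by
  unfold ramp19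
  exact max_le zero_le_one (min_le_left _ _)

theorem ramp19_one {s h t : ℝ} (hh : 0 < h) (ht : t ≤ s) : ramp19 s h t = 1 := by
  unfold ramp19
  have : 1 ≤ (s + h - t) / h := by rw [le_div_iff₀ hh]; linarith
  rw [min_eq_left this]; exact max_eq_right zero_le_one

theorem ramp19_zero {s h t : ℝ} (hh : 0 < h) (ht : s + h ≤ t) : ramp19 s h t = 0 := by
  unfold ramp19
  have : (s + h - t) / h ≤ 0 := div_nonpos_of_nonpos_of_nonneg (by linarith) hh.le
  exact max_eq_left (le_trans (min_le_right _ _) this)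

/-- the count at one level, for sorted arrays -/
theorem level19 {N : ℕ} (x y : Fin N → ℝ) (mx : Monotone x) (my : Monotone y) (s h : ℝ)
    (hh : 0 < h) (e : ℝ) (he : 0 ≤ e)
    (H : ∑ i, ramp19 s h (x i) - ∑ i, ramp19 s h (y i) ≤ e) :
    ((univ.filter (fun i => x i ≤ s ∧ s + h ≤ y i)).card : ℝ) ≤ e := by
  rcases (univ.filter (fun i => x i ≤ s ∧ s + h ≤ y i)).eq_empty_or_nonempty with h0 | ⟨i0, hi0⟩
  · rw [h0]; simpa using he
  · simp only [mem_filter, mem_univ, true_and] at hi0
    have hnn : ∀ i, 0 ≤ ramp19 s h (x i) - ramp19 s h (y i) := by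
      intro i
      rcases le_total i i0 with hi | hi
      · rw [ramp19_one hh (le_trans (mx hi) hi0.1)]
        linarith [ramp19_le s h (y i)]
      · rw [ramp19_zero hh (le_trans hi0.2 (my hi))]
        linarith [ramp19_nonneg s h (x i)]
    refine le_trans ?_ H
    rw [← Finset.sum_sub_distrib]
    calc ((univ.filter (fun i => x i ≤ s ∧ s + h ≤ y i)).card : ℝ)
        = ∑ i ∈ univ.filter (fun i => x i ≤ s ∧ s + h ≤ y i), (1 : ℝ) := by simp
      _ = ∑ i ∈ univ.filter (fun i => x i ≤ s ∧ s + h ≤ y i),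
            (ramp19 s h (x i) - ramp19 s h (y i)) := by
          refine Finset.sum_congr rfl fun i hi => ?_
          simp only [mem_filter, mem_univ, true_and] at hi
          rw [ramp19_one hh hi.1, ramp19_zero hh hi.2]; ring
      _ ≤ ∑ i, (ramp19 s h (x i) - ramp19 s h (y i)) :=
          Finset.sum_le_sum_of_subset_of_nonneg (Finset.filter_subset _ _)
            fun i _ _ => hnn i

/-- D: few sorted eigenvalues differ much. -/
theorem bad_countA (μ : Measure ℝ) (x y : (N : ℕ) → Fin N → ℝ) (hx : Spectra μ x)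
    (hy : Spectra μ y) (mx : ∀ N, Monotone (x N)) (my : ∀ N, Monotone (y N)) (M : ℝ)
    (bx : ∀ᶠ N in atTop, ∀ i, |x N i| ≤ M) (by' : ∀ᶠ N in atTop, ∀ i, |y N i| ≤ M)
    (δ ε : ℝ) (hδ : 0 < δ) (hε : 0 < ε) :
    ∀ᶠ N in atTop, ((univ.filter (fun i => x N i + δ < y N i)).card : ℝ) ≤ ε * N := by
  set h : ℝ := δ / 2 with hh'
  have hh : 0 < h := by rw [hh']; linarith
  set K : ℕ := ⌈2 * M / h⌉₊ with hK
  set s : ℕ → ℝ := fun j => -M + j * h with hs
  set e : ℝ := ε / (K + 1) with he'
  have he : 0 < e := by rw [he']; positivity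
  have key : ∀ j : ℕ, ∀ᶠ N : ℕ in atTop,
      ∑ i, ramp19 (s j) h (x N i) - ∑ i, ramp19 (s j) h (y N i) ≤ e * N := by
    intro j
    have hb : ∃ C, ∀ t, |ramp19 (s j) h t| ≤ C :=
      ⟨1, fun t => by rw [abs_of_nonneg (ramp19_nonneg _ _ _)]; exact ramp19_le _ _ _⟩
    have h1 := hx.weak (ramp19 (s j) h) (ramp19_cont _ _) hb
    have h2 := hy.weak (ramp19 (s j) h) (ramp19_cont _ _) hb
    have h3 := h1.sub h2
    rw [sub_self] at h3
    filter_upwards [h3.eventually (eventually_le_nhds he), eventually_gt_atTop 0] with N hN hN0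
    have hNr : (0 : ℝ) < N := by exact_mod_cast hN0
    rw [← mul_sub, one_div, inv_mul_le_iff₀ hNr] at hN
    linarith [mul_comm e (N : ℝ)]
  have key2 : ∀ᶠ N : ℕ in atTop, ∀ j ∈ range (K + 1),
      ∑ i, ramp19 (s j) h (x N i) - ∑ i, ramp19 (s j) h (y N i) ≤ e * N :=
    (Filter.eventually_all_finset (range (K + 1))).2 fun j _ => key j
  filter_upwards [key2, bx, by'] with N hN hbx hby
  have hsub : univ.filter (fun i => x N i + δ < y N i) ⊆
      (range (K + 1)).biUnion
        (fun j => univ.filter (fun i => x N i ≤ s j ∧ s j + h ≤ y N i)) := by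
    intro i hi
    simp only [mem_filter, mem_univ, true_and] at hi
    have hxi := abs_le.1 (hbx i)
    have h0 : 0 ≤ (x N i + M) / h := div_nonneg (by linarith [hxi.1]) hh.le
    simp only [mem_biUnion, mem_range, mem_filter, mem_univ, true_and]
    refine ⟨⌈(x N i + M) / h⌉₊, ?_, ?_, ?_⟩
    · refine Nat.lt_succ_of_le (Nat.ceil_le_ceil ?_)
      rw [div_le_div_iff_of_pos_right hh]
      linarith [hxi.2]
    · have := Nat.le_ceil ((x N i + M) / h)
      rw [div_le_iff₀ hh] at this
      simp only [hs]; linarith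
    · have := Nat.ceil_lt_add_one h0
      have h4 : (⌈(x N i + M) / h⌉₊ : ℝ) * h < (x N i + M) + h := by
        calc (⌈(x N i + M) / h⌉₊ : ℝ) * h < ((x N i + M) / h + 1) * h :=
              mul_lt_mul_of_pos_right this hh
          _ = (x N i + M) + h := by field_simp
      have : h = δ / 2 := hh'
      simp only [hs]; linarith
  calc ((univ.filter (fun i => x N i + δ < y N i)).card : ℝ)
      ≤ (((range (K + 1)).biUnion
        (fun j => univ.filter (fun i => x N i ≤ s j ∧ s j + h ≤ y N i))).card : ℝ) := by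
        exact_mod_cast Finset.card_le_card hsub
    _ ≤ ((∑ j ∈ range (K + 1),
        (univ.filter (fun i => x N i ≤ s j ∧ s j + h ≤ y N i)).card : ℕ) : ℝ) := by
        exact_mod_cast Finset.card_biUnion_le
    _ = ∑ j ∈ range (K + 1),
        ((univ.filter (fun i => x N i ≤ s j ∧ s j + h ≤ y N i)).card : ℝ) := by push_cast; rfl
    _ ≤ ∑ j ∈ range (K + 1), e * N := Finset.sum_le_sum fun j hj =>
        level19 _ _ (mx N) (my N) (s j) h hh _ (by positivity) (hN j hj)
    _ = ε * N := by
        rw [Finset.sum_const, card_range, nsmul_eq_mul, he']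
        push_cast
        field_simp

end P166U
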