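import Mathlib

/-!
# P166: orthogonally invariant Ising spin glasses, definitions
-/

namespace P166U

open MeasureTheory Filter Topology Finset

/-- spin vector in `{-1,1}^N` of a configuration -/
def spin {N : ℕ} (σ : Fin N → Bool) (i : Fin N) : ℝ := if σ i then 1 else -1

/-- `U` is an orthogonal matrix: `Uᵀ U = 1` -/
def IsOrth {N : ℕ} (U : Fin N → Fin N → ℝ) : Prop :=
  ∀ i j, ∑ k, U k i * U k j = if i = j then 1 else 0

/-- product of matrices -/
def mulMat {N : ℕ} (O U : Fin N → Fin N → ℝ) (i j : Fin N) : ℝ := ∑ k, O i k * U k j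

/-- the coupling matrix `J = Uᵀ Λ U`, `Λ = diag(lam)` -/
def coup {N : ℕ} (lam : Fin N → ℝ) (U : Fin N → Fin N → ℝ) (i j : Fin N) : ℝ :=
  ∑ k, U k i * lam k * U k j

/-- the pressure `(1/N) log (2^{-N} ∑_σ exp ((β/2) σᵀ J σ))` -/
noncomputable def press {N : ℕ} (β : ℝ) (lam : Fin N → ℝ) (U : Fin N → Fin N → ℝ) : ℝ :=
  (1 / (N : ℝ)) * Real.log ((2 : ℝ)⁻¹ ^ N * ∑ σ : Fin N → Bool,
    Real.exp (β / 2 * ∑ i, ∑ j, spin σ i * coup lam U i j * spin σ j))

/-- `ν` is the law of a Haar distributed random orthogonal matrix: a probability measure on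
matrices, carried by the orthogonal matrices and invariant under multiplication by every
orthogonal matrix -/
structure IsHaar {N : ℕ} (ν : Measure (Fin N → Fin N → ℝ)) : Prop where
  prob : IsProbabilityMeasure ν
  orth : ∀ᵐ U ∂ν, IsOrth U
  inv : ∀ O : Fin N → Fin N → ℝ, IsOrth O → ν.map (mulMat O) = ν

/-- the mean pressure `E P_N(β)` for the eigenvalues `lam` -/
noncomputable def meanPress {N : ℕ} (β : ℝ) (lam : Fin N → ℝ)
    (ν : Measure (Fin N → Fin N → ℝ)) : ℝ := ∫ U, press β lam U ∂ν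

/-- the standing assumptions on the eigenvalues: the empirical measures converge weakly to `μ`, the
largest and smallest eigenvalues converge to the maximum and minimum of the support of `μ` -/
structure Spectra (μ : Measure ℝ) (lam : (N : ℕ) → Fin N → ℝ) : Prop where
  weak : ∀ f : ℝ → ℝ, Continuous f → (∃ C, ∀ x, |f x| ≤ C) →
    Tendsto (fun N : ℕ => (1 / (N : ℝ)) * ∑ i, f (lam N i)) atTop (𝓝 (∫ x, f x ∂μ))
  top : Tendsto (fun N : ℕ => ⨆ i, lam N i) atTop (𝓝 (sSup μ.support))
  bot : Tendsto (fun N : ℕ => ⨅ i, lam N i) atTop (𝓝 (sInf μ.support))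

end P166U
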