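import Vale.Agent.P166U.D_helper19

/-! # P166: row E (top_count), by helper19 -/

namespace P166U

open MeasureTheory Filter Topology Finset

/-- E: a positive fraction of the eigenvalues is near the top of the support -/
theorem top_countA (μ : Measure ℝ) [IsProbabilityMeasure μ] (hμ : IsCompact μ.support)
    (x : (N : ℕ) → Fin N → ℝ) (hx : Spectra μ x) (δ : ℝ) (hδ : 0 < δ) :
    ∃ c : ℝ, 0 < c ∧ ∀ᶠ N in atTop,
      c * N ≤ ((univ.filter (fun i => sSup μ.support - δ ≤ x N i)).card : ℝ) := by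
  set b : ℝ := sSup μ.support with hb
  have hne : μ.support.Nonempty := Measure.nonempty_support (IsProbabilityMeasure.ne_zero μ)
  have hbm : b ∈ μ.support := hμ.sSup_mem hne
  have h2 : 0 < δ / 2 := by linarith
  set φ : ℝ → ℝ := fun t => 1 - ramp19 (b - δ) (δ / 2) t with hφ
  have φc : Continuous φ := continuous_const.sub (ramp19_cont _ _)
  have φ0 : ∀ t, 0 ≤ φ t := fun t => by simp only [hφ]; linarith [ramp19_le (b - δ) (δ / 2) t]
  have φ1 : ∀ t, φ t ≤ 1 := fun t => by
    simp only [hφ]; linarith [ramp19_nonneg (b - δ) (δ / 2) t]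
  have φb : ∃ C, ∀ t, |φ t| ≤ C := ⟨1, fun t => by rw [abs_of_nonneg (φ0 t)]; exact φ1 t⟩
  have φi : Integrable φ μ := by
    refine Integrable.of_bound φc.aestronglyMeasurable 1 (Filter.Eventually.of_forall fun t => ?_)
    rw [Real.norm_eq_abs, abs_of_nonneg (φ0 t)]; exact φ1 t
  have hpos : 0 < ∫ t, φ t ∂μ := by
    rw [integral_pos_iff_support_of_nonneg φ0 φi]
    have hmem := (Measure.mem_support_iff_forall b).1 hbm (Set.Ioi (b - δ / 2))
      (Ioi_mem_nhds (by linarith))
    refine lt_of_lt_of_le hmem (measure_mono ?_)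
    intro t ht
    simp only [Set.mem_Ioi] at ht
    simp only [Function.mem_support, hφ]
    rw [ramp19_zero h2 (by linarith)]
    norm_num
  refine ⟨(∫ t, φ t ∂μ) / 2, by linarith, ?_⟩
  have hw := hx.weak φ φc φb
  filter_upwards [hw.eventually (lt_mem_nhds (show (∫ t, φ t ∂μ) / 2 < ∫ t, φ t ∂μ by linarith)),
    eventually_gt_atTop 0] with N hN hN0
  have hNr : (0 : ℝ) < N := by exact_mod_cast hN0
  have h3 : (∫ t, φ t ∂μ) / 2 * N ≤ ∑ i, φ (x N i) := by
    rw [one_div, lt_inv_mul_iff₀ hNr] at hN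
    linarith [mul_comm ((∫ t, φ t ∂μ) / 2) (N : ℝ)]
  refine h3.trans ?_
  calc ∑ i, φ (x N i) ≤ ∑ i, (if b - δ ≤ x N i then (1 : ℝ) else 0) := by
        refine Finset.sum_le_sum fun i _ => ?_
        split_ifs with hi
        · exact φ1 _
        · simp only [hφ]
          rw [ramp19_one h2 (by linarith)]
          norm_num
    _ = ((univ.filter (fun i => b - δ ≤ x N i)).card : ℝ) := by
        rw [Finset.sum_ite]; simp

end P166U
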