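import Vale.Agent.P166U.Defs

/-! # P166: the assumptions on the spectra -/

namespace P166U

open MeasureTheory Filter Topology Finset

theorem spectra_permA (μ : Measure ℝ) (x : (N : ℕ) → Fin N → ℝ) (hx : Spectra μ x)
    (π : (N : ℕ) → Equiv.Perm (Fin N)) : Spectra μ (fun N i => x N (π N i)) := by
  refine ⟨?_, ?_, ?_⟩
  · intro f hf hb
    have h := hx.weak f hf hb
    refine h.congr (fun N => ?_)
    congr 1
    exact (Equiv.sum_comp (π N) (fun i => f (x N i))).symm
  · refine hx.top.congr (fun N => ?_)
    exact (Equiv.iSup_comp (g := fun i => x N i) (π N)).symm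
  · refine hx.bot.congr (fun N => ?_)
    exact (Equiv.iInf_comp (g := fun i => x N i) (π N)).symm

theorem spectra_bddA (μ : Measure ℝ) (x : (N : ℕ) → Fin N → ℝ) (hx : Spectra μ x) :
    ∃ M : ℝ, ∀ᶠ N in atTop, ∀ i, |x N i| ≤ M := by
  have h1 := hx.top.eventually_le_const (u := sSup μ.support + 1) (by linarith)
  have h2 := hx.bot.eventually_const_le (u := sInf μ.support - 1) (by linarith)
  refine ⟨|sSup μ.support| + |sInf μ.support| + 1, ?_⟩
  filter_upwards [h1, h2] with N ha hb i
  have ha' : x N i ≤ sSup μ.support + 1 :=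
    le_trans (le_ciSup (Set.finite_range (fun i => x N i)).bddAbove i) ha
  have hb' : sInf μ.support - 1 ≤ x N i :=
    le_trans hb (ciInf_le (Set.finite_range (fun i => x N i)).bddBelow i)
  have e1 := le_abs_self (sSup μ.support)
  have e2 := neg_abs_le (sInf μ.support)
  have e3 := abs_nonneg (sSup μ.support)
  have e4 := abs_nonneg (sInf μ.support)
  rw [abs_le]
  constructor <;> linarith

end P166U
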