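import Vale.Agent.P166U.C14
import Vale.Agent.P166U.D_helper19
import Vale.Agent.P166U.E_helper19

/-! # P166: assembly (helper1) -/

namespace P166U

open MeasureTheory Filter Topology Finset

theorem one_sidedA (β : ℝ) (hβ : 0 ≤ β) (μ : Measure ℝ) [IsProbabilityMeasure μ]
    (hμ : IsCompact μ.support) (x y : (N : ℕ) → Fin N → ℝ) (hx : Spectra μ x)
    (hy : Spectra μ y) (mx : ∀ N, Monotone (x N)) (my : ∀ N, Monotone (y N))
    (ν : (N : ℕ) → Measure (Fin N → Fin N → ℝ)) (hν : ∀ N, IsHaar (ν N)) (η : ℝ) (hη : 0 < η) :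
    ∀ᶠ N in atTop, meanPress β (y N) (ν N) ≤ meanPress β (x N) (ν N) + η := by
  obtain ⟨M1, hM1⟩ := spectra_bddA μ x hx
  obtain ⟨M2, hM2⟩ := spectra_bddA μ y hy
  set M : ℝ := max (max M1 M2) 0 with hM
  have hM0 : 0 ≤ M := le_max_right _ _
  have bx : ∀ᶠ N in atTop, ∀ i, |x N i| ≤ M := by
    filter_upwards [hM1] with N h i
    exact (h i).trans ((le_max_left _ _).trans (le_max_left _ _))
  have by' : ∀ᶠ N in atTop, ∀ i, |y N i| ≤ M := by
    filter_upwards [hM2] with N h i
    exact (h i).trans ((le_max_right _ _).trans (le_max_left _ _))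
  set b : ℝ := sSup μ.support with hb
  -- choice of the parameters
  set δ : ℝ := η / (3 * (β / 2 + 1)) with hδdef
  have hβ2 : 0 < 3 * (β / 2 + 1) := by positivity
  have hδ : 0 < δ := by positivity
  have hfin : β / 2 * (3 * δ) ≤ η := by
    have e1 : δ * (3 * (β / 2 + 1)) = η := by
      rw [hδdef]
      field_simp
    nlinarith
  obtain ⟨c, hc, htop⟩ := top_countA μ hμ x hx δ hδ
  -- size of the bad set
  set ε : ℝ := min (c / 2) (c * δ / (4 * (M + |b| + δ + 1))) with hε
  have hMb : 0 < M + |b| + δ + 1 := by positivity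
  have hε0 : 0 < ε := by
    rw [hε]
    refine lt_min (by positivity) (by positivity)
  have hbad := bad_countA μ x y hx hy mx my M bx by' δ ε hδ hε0
  have hytop : ∀ᶠ N in atTop, (⨆ i, y N i) < b + δ :=
    (tendsto_order.1 hy.top).2 (b + δ) (by linarith)
  filter_upwards [htop, hbad, hytop, bx, eventually_gt_atTop 0] with N h1 h2 h3 h4 hN
  have hN' : (0 : ℝ) < N := by exact_mod_cast hN
  classical
  set B : Finset (Fin N) := univ.filter (fun i => x N i + δ < y N i) with hB
  set T : Finset (Fin N) := univ.filter (fun i => b - δ ≤ x N i) with hT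
  set G : Finset (Fin N) := T ∪ B with hG
  have hTpos : 0 < (T.card : ℝ) := lt_of_lt_of_le (by positivity) h1
  have hTne : T.Nonempty := by
    rw [← Finset.card_pos]
    exact_mod_cast hTpos
  have hGne : G.Nonempty := hTne.mono subset_union_left
  have hGcard : (T.card : ℝ) ≤ (G.card : ℝ) := by
    exact_mod_cast card_le_card subset_union_left
  have hGpos : 0 < (G.card : ℝ) := lt_of_lt_of_le hTpos hGcard
  -- the average over the group is large
  have hsum : (b - δ) * (G.card : ℝ) - (M + |b| + δ) * (B.card : ℝ) ≤ ∑ j ∈ G, x N j := by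
    have e1 : ∑ j ∈ G, (b - δ - (if j ∈ B then (M + |b| + δ) else 0)) ≤ ∑ j ∈ G, x N j := by
      refine sum_le_sum fun j hj => ?_
      by_cases hjB : j ∈ B
      · rw [if_pos hjB]
        have := (abs_le.1 (h4 j)).1
        have := le_abs_self b
        linarith
      · rw [if_neg hjB]
        have hjT : j ∈ T := by
          rcases mem_union.1 hj with h | h
          · exact h
          · exact absurd h hjB
        have := (mem_filter.1 hjT).2
        linarith
    refine le_trans ?_ e1
    rw [sum_sub_distrib, sum_const, nsmul_eq_mul, ← sum_filter, sum_const, nsmul_eq_mul]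
    have e2 : ((G.filter (fun j => j ∈ B)).card : ℝ) ≤ (B.card : ℝ) := by
      have : G.filter (fun j => j ∈ B) ⊆ B := fun j hj => (mem_filter.1 hj).2
      exact_mod_cast card_le_card this
    have e3 : 0 ≤ M + |b| + δ := by positivity
    nlinarith
  have hBG : (M + |b| + δ) * (B.card : ℝ) ≤ δ * (G.card : ℝ) := by
    have e1 : ε * N ≤ c * δ / (4 * (M + |b| + δ + 1)) * N :=
      mul_le_mul_of_nonneg_right (min_le_right _ _) hN'.le
    have e2 : (B.card : ℝ) ≤ c * δ / (4 * (M + |b| + δ + 1)) * N := h2.trans e1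
    have e3 : (M + |b| + δ) * (B.card : ℝ)
        ≤ (M + |b| + δ + 1) * (c * δ / (4 * (M + |b| + δ + 1)) * N) := by
      refine mul_le_mul (by linarith) e2 (by positivity) (by positivity)
    have e4 : (M + |b| + δ + 1) * (c * δ / (4 * (M + |b| + δ + 1)) * N) = δ * (c * N) / 4 := by
      field_simp
    rw [e4] at e3
    have e5 : δ * (c * N) ≤ δ * (G.card : ℝ) :=
      mul_le_mul_of_nonneg_left (h1.trans hGcard) hδ.le
    have e6 : 0 ≤ δ * (c * N) := by positivity
    linarith
  have havg : b - 2 * δ ≤ (∑ j ∈ G, x N j) / (G.card : ℝ) := by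
    rw [le_div_iff₀ hGpos]
    nlinarith
  have hz := mean_groupB hN β hβ (x N) (ν N) (hν N) G hGne
  have hyz : ∀ i, y N i ≤ (if i ∈ G then (∑ j ∈ G, x N j) / (G.card : ℝ) else x N i) + 3 * δ := by
    intro i
    by_cases hi : i ∈ G
    · rw [if_pos hi]
      have : y N i ≤ ⨆ i, y N i := le_ciSup (Set.finite_range _).bddAbove i
      linarith
    · rw [if_neg hi]
      have hiB : i ∉ B := fun h => hi (mem_union_right _ h)
      have : ¬ (x N i + δ < y N i) := fun h => hiB (mem_filter.2 ⟨mem_univ _, h⟩)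
      linarith
  have hle := mean_leB hN β hβ (y N) _ (ν N) (hν N) (3 * δ) hyz
  linarith

theorem universalityA (β : ℝ) (hβ : 0 ≤ β) (μ : Measure ℝ) [IsProbabilityMeasure μ]
    (hμ : IsCompact μ.support) (x y : (N : ℕ) → Fin N → ℝ) (hx : Spectra μ x)
    (hy : Spectra μ y) (ν : (N : ℕ) → Measure (Fin N → Fin N → ℝ)) (hν : ∀ N, IsHaar (ν N)) :
    Tendsto (fun N => meanPress β (x N) (ν N) - meanPress β (y N) (ν N)) atTop (𝓝 0) := by
  have hx' := spectra_permA μ x hx (fun N => Tuple.sort (x N))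
  have hy' := spectra_permA μ y hy (fun N => Tuple.sort (y N))
  have mx : ∀ N, Monotone (fun i => x N (Tuple.sort (x N) i)) := fun N => Tuple.monotone_sort (x N)
  have my : ∀ N, Monotone (fun i => y N (Tuple.sort (y N) i)) := fun N => Tuple.monotone_sort (y N)
  have ex : ∀ N, meanPress β (fun i => x N (Tuple.sort (x N) i)) (ν N) = meanPress β (x N) (ν N) :=
    fun N => mean_permA β (x N) (ν N) (hν N) _
  have ey : ∀ N, meanPress β (fun i => y N (Tuple.sort (y N) i)) (ν N) = meanPress β (y N) (ν N) :=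
    fun N => mean_permA β (y N) (ν N) (hν N) _
  rw [Metric.tendsto_atTop']
  intro η hη
  have h1 := one_sidedA β hβ μ hμ _ _ hx' hy' mx my ν hν (η / 2) (by positivity)
  have h2 := one_sidedA β hβ μ hμ _ _ hy' hx' my mx ν hν (η / 2) (by positivity)
  obtain ⟨N0, h⟩ := eventually_atTop.1 (h1.and h2)
  refine ⟨N0, fun N hN => ?_⟩
  obtain ⟨a1, a2⟩ := h N hN.le
  simp only [ex, ey] at a1 a2
  rw [Real.dist_eq, sub_zero, abs_lt]
  constructor <;> linarith

end P166U
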